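import Mathlib

/-!
P335 (helper26): Lemma BL on a slice (all `k`-subsets of a finite type).
-/

namespace P335h26

open Finset

set_option linter.unusedSectionVars false

section Tri

variable {c : Type*} [Fintype c] [DecidableEq c]

/-- Poincare inequality on the triangular graph, in the form needed. -/
theorem tri_poincare (e : c → c → ℝ) (hsymm : ∀ x y, e x y = e y x) (hdiag : ∀ x, e x x = 0)
    (hsum : ∑ x, ∑ y, e x y = 0) (hM : 2 < Fintype.card c) :
    (Fintype.card c : ℝ) * ∑ x, ∑ y, e x y ^ 2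
      ≤ ∑ x, ∑ y, ∑ z, (if x = y ∨ x = z then 0 else (e x y - e x z) ^ 2) := by
  set M : ℝ := (Fintype.card c : ℝ) with hMdef
  have hM' : (2 : ℝ) < M := by rw [hMdef]; exact_mod_cast hM
  set s : c → ℝ := fun x => ∑ y, e x y with hs
  set E2 : ℝ := ∑ x, ∑ y, e x y ^ 2 with hE2
  set A : ℝ := ∑ x, s x ^ 2 with hA
  have hs0 : ∑ x, s x = 0 := hsum
  have hcard : ∀ a : ℝ, ∑ _x : c, a = M * a := by
    intro a; simp [hMdef]
  -- sum e (s x)
  have h1 : ∑ x, ∑ y, e x y * s x = A := by
    rw [hA]; apply Finset.sum_congr rfl; intro x _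
    rw [← Finset.sum_mul, sq]
  have h2 : ∑ x, ∑ y, e x y * s y = A := by
    rw [Finset.sum_comm, ← h1]
    apply Finset.sum_congr rfl; intro x _
    apply Finset.sum_congr rfl; intro y _
    rw [hsymm]
  -- first inequality : 2 A ≤ (M-2) E2
  have hsos : 0 ≤ ∑ x, ∑ y, (if x = y then 0 else ((M - 2) * e x y - (s x + s y)) ^ 2) := by
    apply Finset.sum_nonneg; intro x _; apply Finset.sum_nonneg; intro y _
    split_ifs
    · exact le_rfl
    · positivity
  have hexp : ∑ x, ∑ y, (if x = y then 0 else ((M - 2) * e x y - (s x + s y)) ^ 2)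
      = (M - 2) ^ 2 * E2 - 2 * (M - 2) * A := by
    have e1 : ∀ x y, (if x = y then (0:ℝ) else ((M - 2) * e x y - (s x + s y)) ^ 2)
        = ((M - 2) * e x y - (s x + s y)) ^ 2 - (if x = y then 4 * s x ^ 2 else 0) := by
      intro x y
      split_ifs with h
      · subst h; rw [hdiag]; ring
      · ring
    simp only [e1, Finset.sum_sub_distrib]
    have e2 : ∑ x, ∑ y, (if x = y then 4 * s x ^ 2 else 0) = 4 * A := by
      rw [hA, Finset.mul_sum]; apply Finset.sum_congr rfl; intro x _
      simp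
    have e3 : ∑ x, ∑ y, ((M - 2) * e x y - (s x + s y)) ^ 2
        = (M - 2) ^ 2 * E2 - 4 * (M - 2) * A + 2 * M * A := by
      have e4 : ∀ x y, ((M - 2) * e x y - (s x + s y)) ^ 2
          = (M - 2) ^ 2 * e x y ^ 2 - 2 * (M - 2) * (e x y * s x) - 2 * (M - 2) * (e x y * s y)
            + s x ^ 2 + s y ^ 2 + 2 * (s x * s y) := by intro x y; ring
      simp only [e4, Finset.sum_add_distrib, Finset.sum_sub_distrib, ← Finset.mul_sum]
      rw [h1, h2]
      have e5 : ∑ x : c, ∑ _y : c, s x ^ 2 = M * A := by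
        simp only [hcard]; rw [← Finset.mul_sum]
      have e6 : ∑ _x : c, ∑ y : c, s y ^ 2 = M * A := by
        rw [hcard]
      have e7 : ∑ x : c, s x * ∑ y : c, s y = 0 := by
        simp [hs0]
      rw [e5, e6, e7]; ring
    rw [e2, e3]; ring
  have hA2 : 2 * A ≤ (M - 2) * E2 := by
    rw [hexp] at hsos
    have : 0 ≤ (M - 2) * ((M - 2) * E2 - 2 * A) := by nlinarith
    have h3 : 0 < M - 2 := by linarith
    have := nonneg_of_mul_nonneg_right this h3
    linarith
  -- second identity
  have hid : ∑ x, ∑ y, ∑ z, (if x = y ∨ x = z then 0 else (e x y - e x z) ^ 2)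
      = 2 * (M - 1) * E2 - 2 * A := by
    have e1 : ∀ x y z, (if x = y ∨ x = z then (0:ℝ) else (e x y - e x z) ^ 2)
        = (e x y - e x z) ^ 2 - (if x = y then e x z ^ 2 else 0) - (if x = z then e x y ^ 2 else 0) := by
      intro x y z
      by_cases h1 : x = y
      · subst h1
        by_cases h2 : x = z
        · subst h2; simp [hdiag]
        · simp [h2, hdiag]
      · by_cases h2 : x = z
        · subst h2; simp [h1, hdiag]
        · simp [h1, h2]
    simp only [e1, Finset.sum_sub_distrib]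
    have e2 : ∑ x, ∑ y, ∑ z, (if x = y then e x z ^ 2 else 0) = E2 := by
      rw [hE2]; apply Finset.sum_congr rfl; intro x _
      rw [Finset.sum_eq_single x]
      · simp
      · intro b _ hb; simp [Ne.symm hb]
      · simp
    have e3 : ∑ x, ∑ y, ∑ z, (if x = z then e x y ^ 2 else 0) = E2 := by
      rw [hE2]; apply Finset.sum_congr rfl; intro x _
      apply Finset.sum_congr rfl; intro y _
      simp
    have e4 : ∑ x, ∑ y, ∑ z, (e x y - e x z) ^ 2 = 2 * M * E2 - 2 * A := by
      have e5 : ∀ x y z, (e x y - e x z) ^ 2 = e x y ^ 2 + e x z ^ 2 - 2 * (e x y * e x z) := by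
        intro x y z; ring
      simp only [e5, Finset.sum_add_distrib, Finset.sum_sub_distrib, ← Finset.mul_sum, hcard]
      have e6 : ∑ x, ∑ y, e x y * ∑ z, e x z = A := by
        rw [hA]; apply Finset.sum_congr rfl; intro x _
        rw [← Finset.sum_mul, sq]
      rw [e6]
      ring
    rw [e2, e3, e4]; ring
  rw [hid]
  nlinarith

end Tri

section Abs

variable {Ω c : Type*} [Fintype c] [DecidableEq c]

/-- indicator of `exactly one of x, y is a member` -/
noncomputable def ax (m : c → Ω → Prop) [∀ x s, Decidable (m x s)] (x y : c) (s : Ω) : ℝ :=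
  if (m x s ↔ m y s) then 0 else 1

variable (m : c → Ω → Prop) [∀ x s, Decidable (m x s)]

theorem ax_symm (x y : c) (s : Ω) : ax m x y s = ax m y x s := by
  unfold ax
  by_cases h1 : m x s <;> by_cases h2 : m y s <;> simp [h1, h2]

theorem ax_self (x : c) (s : Ω) : ax m x x s = 0 := by
  unfold ax; simp

theorem ax_nonneg (x y : c) (s : Ω) : 0 ≤ ax m x y s := by
  unfold ax; split_ifs <;> norm_num

theorem ax_sq_sub (x y z : c) (s : Ω) : (ax m x y s - ax m x z s) ^ 2 = ax m y z s := by
  unfold ax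
  by_cases h1 : m x s <;> by_cases h2 : m y s <;> by_cases h3 : m z s <;> simp [h1, h2, h3]

/-- the number of ordered pairs separated by `s` -/
theorem sum_ax (s : Ω) (k : ℕ) (hk : (univ.filter (fun x => m x s)).card = k) :
    ∑ x, ∑ y, ax m x y s = 2 * (k : ℝ) * ((Fintype.card c : ℝ) - k) := by
  have hk' : ((univ.filter (fun x => ¬ m x s)).card : ℝ) = (Fintype.card c : ℝ) - k := by
    have := Finset.card_filter_add_card_filter_not (s := (univ : Finset c)) (fun x => m x s)
    rw [hk, Finset.card_univ] at this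
    have h2 : ((k + (univ.filter (fun x => ¬ m x s)).card : ℕ) : ℝ) = (Fintype.card c : ℝ) := by
      exact_mod_cast this
    push_cast at h2
    linarith
  have h1 : ∀ x, ∑ y, ax m x y s = if m x s then (Fintype.card c : ℝ) - k else (k : ℝ) := by
    intro x
    by_cases hx : m x s
    · rw [if_pos hx, ← hk', Finset.card_filter]
      push_cast
      apply Finset.sum_congr rfl; intro y _
      unfold ax
      by_cases hy : m y s <;> simp [hx, hy]
    · rw [if_neg hx, ← hk, Finset.card_filter]
      push_cast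
      apply Finset.sum_congr rfl; intro y _
      unfold ax
      by_cases hy : m y s <;> simp [hx, hy]
  simp only [h1]
  rw [Finset.sum_ite]
  simp only [Finset.sum_const, nsmul_eq_mul]
  rw [hk, hk']; ring

variable (S : Finset Ω) (σ : c → c → Ω → Ω)

theorem sum_sigma (hσS : ∀ y z, ∀ s ∈ S, σ y z s ∈ S) (hσσ : ∀ y z, ∀ s ∈ S, σ y z (σ y z s) = s)
    (y z : c) (F : Ω → ℝ) : ∑ s ∈ S, F (σ y z s) = ∑ s ∈ S, F s := by
  apply Finset.sum_nbij' (σ y z) (σ y z)
  · intro s hs; exact hσS y z s hs
  · intro s hs; exact hσS y z s hs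
  · intro s hs; exact hσσ y z s hs
  · intro s hs; exact hσσ y z s hs
  · intro s _; rfl

theorem ax_sigma (hσm : ∀ y z u, ∀ s ∈ S, (m u (σ y z s) ↔ m (Equiv.swap y z u) s))
    {x y z : c} (hxy : x ≠ y) (hxz : x ≠ z) {s : Ω} (hs : s ∈ S) :
    ax m x y (σ y z s) = ax m x z s := by
  unfold ax
  have h1 := hσm y z x s hs
  have h2 := hσm y z y s hs
  rw [Equiv.swap_apply_left] at h2
  rw [Equiv.swap_apply_of_ne_of_ne hxy hxz] at h1
  by_cases a1 : m x s <;> by_cases a2 : m z s <;> simp [h1, h2, a1, a2]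

/-- Lemma BL, abstract form. -/
theorem bl_abs (hσS : ∀ y z, ∀ s ∈ S, σ y z s ∈ S) (hσσ : ∀ y z, ∀ s ∈ S, σ y z (σ y z s) = s)
    (hσm : ∀ y z u, ∀ s ∈ S, (m u (σ y z s) ↔ m (Equiv.swap y z u) s))
    (k : ℕ) (hk : ∀ s ∈ S, (univ.filter (fun x => m x s)).card = k)
    (g : Ω → ℝ) (hg : ∑ s ∈ S, g s = 0) :
    ∑ x, ∑ y, (∑ s ∈ S, g s * ax m x y s) ^ 2 / (∑ s ∈ S, ax m x y s)
      ≤ (1 / 4) * ∑ x, ∑ y, ∑ s ∈ S, (g s - g (σ x y s)) ^ 2 := by
  set e : c → c → ℝ := fun x y => ∑ s ∈ S, g s * ax m x y s with he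
  set P : c → c → ℝ := fun x y => ∑ s ∈ S, ax m x y s with hP
  set En : c → c → ℝ := fun x y => ∑ s ∈ S, (g s - g (σ x y s)) ^ 2 with hEn
  have hEn0 : ∀ x y, 0 ≤ En x y := fun x y => Finset.sum_nonneg (fun s _ => by positivity)
  have hP0 : ∀ x y, 0 ≤ P x y := fun x y => Finset.sum_nonneg (fun s _ => ax_nonneg m x y s)
  have hesymm : ∀ x y, e x y = e y x := by
    intro x y; simp only [he]; apply Finset.sum_congr rfl; intro s _; rw [ax_symm]
  have hediag : ∀ x, e x x = 0 := by
    intro x; simp only [he, ax_self, mul_zero, Finset.sum_const_zero]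
  have hPsymm : ∀ x y, P x y = P y x := by
    intro x y; simp only [hP]; apply Finset.sum_congr rfl; intro s _; rw [ax_symm]
  have hesum : ∑ x, ∑ y, e x y = 0 := by
    simp only [he]
    have h1 : ∑ x, ∑ y, ∑ s ∈ S, g s * ax m x y s = ∑ s ∈ S, g s * ∑ x, ∑ y, ax m x y s := by
      simp only [Finset.mul_sum]
      calc ∑ x, ∑ y, ∑ s ∈ S, g s * ax m x y s
          = ∑ x, ∑ s ∈ S, ∑ y, g s * ax m x y s :=
            Finset.sum_congr rfl (fun x _ => Finset.sum_comm)
        _ = ∑ s ∈ S, ∑ x, ∑ y, g s * ax m x y s := Finset.sum_comm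
    rw [h1]
    have h2 : ∀ s ∈ S, g s * ∑ x, ∑ y, ax m x y s
        = (2 * (k : ℝ) * ((Fintype.card c : ℝ) - k)) * g s := by
      intro s hs; rw [sum_ax m s k (hk s hs)]; ring
    rw [Finset.sum_congr rfl h2, ← Finset.mul_sum, hg, mul_zero]
  -- P is constant off the diagonal
  have hP1 : ∀ x y z, x ≠ y → x ≠ z → P x y = P x z := by
    intro x y z hxy hxz
    simp only [hP]
    rw [← sum_sigma S σ hσS hσσ y z (fun s => ax m x y s)]
    apply Finset.sum_congr rfl; intro s hs
    exact ax_sigma m S σ hσm hxy hxz hs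
  have hPc : ∀ x y z w, x ≠ y → z ≠ w → P x y = P z w := by
    intro x y z w hxy hzw
    by_cases hxw : x = w
    · subst hxw
      rw [hP1 x y z hxy (Ne.symm hzw), hPsymm]
    · rw [hP1 x y w hxy hxw, hPsymm x w, hP1 w x z (Ne.symm hxw) (Ne.symm hzw), hPsymm]
  -- the swap inequality
  have hswap : ∀ x y z, x ≠ y → x ≠ z → 4 * (e x y - e x z) ^ 2 ≤ P y z * En y z := by
    intro x y z hxy hxz
    have h1 : e x z = ∑ s ∈ S, g (σ y z s) * ax m x y s := by
      simp only [he]
      rw [← sum_sigma S σ hσS hσσ y z (fun s => g s * ax m x z s)]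
      apply Finset.sum_congr rfl; intro s hs
      rw [← ax_sigma m S σ hσm hxy hxz (hσS y z s hs), hσσ y z s hs]
    have h2 : e x y = ∑ s ∈ S, g (σ y z s) * ax m x z s := by
      simp only [he]
      rw [← sum_sigma S σ hσS hσσ y z (fun s => g s * ax m x y s)]
      apply Finset.sum_congr rfl; intro s hs
      rw [ax_sigma m S σ hσm hxy hxz hs]
    have h3 : 2 * (e x y - e x z)
        = ∑ s ∈ S, (g s - g (σ y z s)) * (ax m x y s - ax m x z s) := by
      have : ∑ s ∈ S, (g s - g (σ y z s)) * (ax m x y s - ax m x z s)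
          = (∑ s ∈ S, g s * ax m x y s) - (∑ s ∈ S, g (σ y z s) * ax m x y s)
            - (∑ s ∈ S, g s * ax m x z s) + (∑ s ∈ S, g (σ y z s) * ax m x z s) := by
        simp only [← Finset.sum_sub_distrib, ← Finset.sum_add_distrib]
        apply Finset.sum_congr rfl; intro s _; ring
      rw [this, ← h1, ← h2]
      simp only [he]; ring
    have h4 := Finset.sum_mul_sq_le_sq_mul_sq S (fun s => g s - g (σ y z s))
      (fun s => ax m x y s - ax m x z s)
    rw [← h3] at h4
    have h5 : ∑ s ∈ S, (ax m x y s - ax m x z s) ^ 2 = P y z := by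
      simp only [hP]; apply Finset.sum_congr rfl; intro s _; exact ax_sq_sub m x y z s
    rw [h5] at h4
    calc 4 * (e x y - e x z) ^ 2 = (2 * (e x y - e x z)) ^ 2 := by ring
      _ ≤ En y z * P y z := h4
      _ = P y z * En y z := mul_comm _ _
  by_cases hM : 2 < Fintype.card c
  · -- main case
    obtain ⟨x0, y0, hxy0⟩ : ∃ x0 y0 : c, x0 ≠ y0 := by
      have : 1 < Fintype.card c := by omega
      exact Fintype.exists_pair_of_one_lt_card this
    set P0 : ℝ := P x0 y0 with hP0def
    have hPP : ∀ x y, x ≠ y → P x y = P0 := fun x y h => hPc x y x0 y0 h hxy0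
    have hP00 : 0 ≤ P0 := hP0 _ _
    have htri := tri_poincare e hesymm hediag hesum hM
    set M : ℝ := (Fintype.card c : ℝ) with hMdef
    have hMpos : 0 < M := by rw [hMdef]; exact_mod_cast (by omega : 0 < Fintype.card c)
    have hbound : 4 * ∑ x, ∑ y, ∑ z, (if x = y ∨ x = z then 0 else (e x y - e x z) ^ 2)
        ≤ M * (P0 * ∑ y, ∑ z, En y z) := by
      have h1 : ∀ x y z, 4 * (if x = y ∨ x = z then 0 else (e x y - e x z) ^ 2) ≤ P0 * En y z := by
        intro x y z
        split_ifs with h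
        · have := mul_nonneg hP00 (hEn0 y z); linarith
        · rw [not_or] at h
          by_cases hyz : y = z
          · subst hyz
            have := mul_nonneg hP00 (hEn0 y y)
            simp only [sub_self]; nlinarith
          · have := hswap x y z h.1 h.2
            rwa [hPP y z hyz] at this
      calc 4 * ∑ x, ∑ y, ∑ z, (if x = y ∨ x = z then 0 else (e x y - e x z) ^ 2)
          = ∑ x, ∑ y, ∑ z, 4 * (if x = y ∨ x = z then 0 else (e x y - e x z) ^ 2) := by
            simp only [Finset.mul_sum]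
        _ ≤ ∑ _x : c, ∑ y, ∑ z, P0 * En y z :=
            Finset.sum_le_sum (fun x _ => Finset.sum_le_sum (fun y _ =>
              Finset.sum_le_sum (fun z _ => h1 x y z)))
        _ = M * (P0 * ∑ y, ∑ z, En y z) := by
            simp only [Finset.sum_const, Finset.card_univ, nsmul_eq_mul, Finset.mul_sum, hMdef]
    have hE2 : 4 * ∑ x, ∑ y, e x y ^ 2 ≤ P0 * ∑ y, ∑ z, En y z := by
      have : M * (4 * ∑ x, ∑ y, e x y ^ 2) ≤ M * (P0 * ∑ y, ∑ z, En y z) := by nlinarith
      exact le_of_mul_le_mul_left this hMpos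
    have hterm : ∀ x y, e x y ^ 2 / P x y = e x y ^ 2 / P0 := by
      intro x y
      by_cases hxy : x = y
      · subst hxy; rw [hediag]; simp
      · rw [hPP x y hxy]
    have hLHS : ∑ x, ∑ y, (∑ s ∈ S, g s * ax m x y s) ^ 2 / (∑ s ∈ S, ax m x y s)
        = ∑ x, ∑ y, e x y ^ 2 / P0 :=
      Finset.sum_congr rfl (fun x _ => Finset.sum_congr rfl (fun y _ => hterm x y))
    rw [hLHS]
    rcases eq_or_lt_of_le hP00 with h0 | hpos
    · simp only [← h0, div_zero, Finset.sum_const_zero]
      have : 0 ≤ ∑ x, ∑ y, En x y :=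
        Finset.sum_nonneg (fun x _ => Finset.sum_nonneg (fun y _ => hEn0 x y))
      linarith
    · simp only [← Finset.sum_div]
      rw [div_le_iff₀ hpos]
      nlinarith
  · -- at most two columns : all e vanish
    have hez : ∀ x y, e x y = 0 := by
      intro x y
      by_cases hxy : x = y
      · subst hxy; exact hediag x
      · have huniv : (univ : Finset c) = {x, y} := by
          symm
          apply Finset.eq_univ_of_card
          rw [Finset.card_pair hxy]
          have : 2 ≤ Fintype.card c := by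
            have := Finset.card_le_univ ({x, y} : Finset c)
            rwa [Finset.card_pair hxy] at this
          omega
        have := hesum
        rw [huniv] at this
        simp only [Finset.sum_pair hxy, hediag] at this
        rw [hesymm y x] at this
        linarith
    have hL : ∑ x, ∑ y, e x y ^ 2 / P x y = 0 := by
      simp [hez]
    rw [hL]
    have : 0 ≤ ∑ x, ∑ y, En x y :=
      Finset.sum_nonneg (fun x _ => Finset.sum_nonneg (fun y _ => hEn0 x y))
    linarith

end Abs

end P335h26
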